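import Vale.Agent.P002S.All

namespace Vale.Agent.Results.P002.CurvesAll

open Matrix

/-- A family of matrices in `SL_r(ℂ)` acts semisimply on `ℂ^r`: every invariant subspace has an
invariant complement. -/
def Semisimple {ι : Type} {r : ℕ} (ρ : ι → SpecialLinearGroup (Fin r) ℂ) : Prop :=
  ∀ N : Submodule ℂ (Fin r → ℂ),
    (∀ k, ∀ v ∈ N, (ρ k : Matrix (Fin r) (Fin r) ℂ) *ᵥ v ∈ N) →
    ∃ N' : Submodule ℂ (Fin r → ℂ),
      (∀ k, ∀ v ∈ N', (ρ k : Matrix (Fin r) (Fin r) ℂ) *ᵥ v ∈ N') ∧ IsCompl N N'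

/-- Semisimple representations in `SL_r(ℂ)` of the fundamental group
`⟨a_1, b_1, …, a_g, b_g, γ_1, …, γ_s | ∏ [a_i, b_i] ∏ γ_j = 1⟩` of a curve of genus `g` with `s`
punctures, given by the images of the generators, with `γ_j` mapped into the class of `c j`. -/
def Reps (g s r : ℕ) (c : Fin s → SpecialLinearGroup (Fin r) ℂ) :
    Set (Fin g ⊕ Fin g ⊕ Fin s → SpecialLinearGroup (Fin r) ℂ) :=
  {ρ | (List.ofFn fun i : Fin g =>
          ρ (.inl i) * ρ (.inr (.inl i)) * (ρ (.inl i))⁻¹ * (ρ (.inr (.inl i)))⁻¹).prod *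
        (List.ofFn fun j : Fin s => ρ (.inr (.inr j))).prod = 1 ∧
      (∀ j, IsConj (c j) (ρ (.inr (.inr j)))) ∧ Semisimple ρ}

theorem mem_iff {g s r : ℕ} (c : Fin s → SpecialLinearGroup (Fin r) ℂ)
    (ρ : Fin g ⊕ Fin g ⊕ Fin s → SpecialLinearGroup (Fin r) ℂ) :
    ρ ∈ Reps g s r c ↔ (fun k => (ρ k : Matrix (Fin r) (Fin r) ℂ)) ∈
      Vale.Agent.P002.Pts (g := g) fun j => (c j : Matrix (Fin r) (Fin r) ℂ) := by
  let m : SpecialLinearGroup (Fin r) ℂ →* Matrix (Fin r) (Fin r) ℂ :=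
    ⟨⟨fun A => A.1, rfl⟩, fun _ _ => rfl⟩
  have hinv : ∀ A, m A⁻¹ = (m A)⁻¹ := fun A =>
    (Matrix.inv_eq_left_inv (by rw [← map_mul, inv_mul_cancel, map_one])).symm
  have e : m ((List.ofFn fun i : Fin g =>
          ρ (.inl i) * ρ (.inr (.inl i)) * (ρ (.inl i))⁻¹ * (ρ (.inr (.inl i)))⁻¹).prod *
        (List.ofFn fun j : Fin s => ρ (.inr (.inr j))).prod) =
      Vale.Agent.P002.surfW fun k => m (ρ k) := by
    rw [map_mul, map_list_prod, map_list_prod, List.map_ofFn, List.map_ofFn]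
    unfold Vale.Agent.P002.surfW Vale.Agent.P002.cm
    congr 3
    funext i
    simp only [Function.comp_apply, map_mul, hinv]
  constructor
  · rintro ⟨h1, h2, h3⟩
    refine ⟨fun k => (ρ k).2, e.symm.trans (by rw [h1, map_one]), fun j => ?_, h3⟩
    obtain ⟨h, hh⟩ := isConj_iff.1 (h2 j)
    refine ⟨m h, h.2, ?_⟩
    change m (ρ _) = m h * m (c j) * (m h)⁻¹
    rw [← hh, map_mul, map_mul, hinv]
  · rintro ⟨-, h1, h2, h3⟩
    refine ⟨Subtype.ext (e.trans h1), fun j => ?_, h3⟩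
    obtain ⟨h, hh, he⟩ := h2 j
    obtain ⟨u, hu⟩ : ∃ u : SpecialLinearGroup (Fin r) ℂ, m u = h := ⟨⟨h, hh⟩, rfl⟩
    refine isConj_iff.2 ⟨u, Subtype.ext ?_⟩
    change m (u * c j * u⁻¹) = _
    rw [map_mul, map_mul, hinv, hu]
    exact he.symm

theorem result (g s r : ℕ) (hr : 2 ≤ r)
    (c : Fin s → SpecialLinearGroup (Fin r) ℂ)
    (hc : ∀ j, ∀ z : ℂ, (c j : Matrix (Fin r) (Fin r) ℂ).charpoly.IsRoot z → IsIntegral ℤ z) :
    ∃ L : IntermediateField ℚ ℂ, FiniteDimensional ℚ L ∧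
      ∀ F : MvPolynomial ((Fin g ⊕ Fin g ⊕ Fin s) × Fin r × Fin r) ℂ,
        (∀ ρ ∈ Reps g s r c, (∀ k i j, ρ k i j ∈ L ∧ IsIntegral ℤ (ρ k i j)) →
          MvPolynomial.eval (fun q => ρ q.1 q.2.1 q.2.2) F = 0) →
        ∀ ρ ∈ Reps g s r c, MvPolynomial.eval (fun q => ρ q.1 q.2.1 q.2.2) F = 0 := by
  obtain ⟨L, hL, h⟩ := Vale.Agent.P002S.all_curves r g s (fun j => (c j).1) (by omega)
    (fun j => (c j).2) hc
  refine ⟨L, hL, fun F hF ρ hρ => ?_⟩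
  have hreg : Vale.Agent.P002.Reg Set.univ
      fun v : Vale.Agent.P002.Gens g s → Vale.Agent.P002.Mat r =>
        MvPolynomial.eval (fun q : (Fin g ⊕ Fin g ⊕ Fin s) × Fin r × Fin r =>
          v q.1 q.2.1 q.2.2) F :=
    Vale.Agent.P002.Reg.mv F fun q => (Vale.Agent.P002.RegF.proj q.1).entry _ _
  have h1 := h _ ((mem_iff c ρ).1 hρ)
  have h2 := Vale.Agent.P002.Zc.reg_zero h1 Vale.Agent.P002.Bas.univ (Set.mem_univ _) hreg ?_
  · exact h2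
  · rintro v ⟨hv, hi⟩ -
    obtain ⟨τ, rfl⟩ : ∃ τ : Fin g ⊕ Fin g ⊕ Fin s → SpecialLinearGroup (Fin r) ℂ,
        v = fun k => (τ k : Matrix (Fin r) (Fin r) ℂ) := ⟨fun k => ⟨v k, (hi k).2.2⟩, rfl⟩
    exact hF τ ((mem_iff c τ).2 hv) fun k i j => ⟨(hi k).1 i j, (hi k).2.1 i j⟩

end Vale.Agent.Results.P002.CurvesAll
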